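/-
S0066 (row 47), package HP: four facts about the pattern `Hpat`
(inputs of `Crest.Agent.Helper60.OrdMat.s0066_of_base`).
Statements verbatim from `Crest.Agent.Helper5.S0066.Spec`.
-/
import Crest.Agent.Helper5.S0066.Defs

set_option autoImplicit false

namespace Crest.Agent.Helper71.S0066

open Crest.Agent.Helper5.S0066

/-- The pattern is symmetric. -/
theorem Hpat_symm (i j : Fin 66) : Hpat i j = Hpat j i := by
  unfold Hpat code
  by_cases h1 : i.val < 3 <;> by_cases h2 : j.val < 3 <;> by_cases h3 : i.val < 62 <;>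
    by_cases h4 : j.val < 62 <;> simp only [h1, h2, h3, h4, if_true, if_false] <;>
    first
      | rfl
      | omega
      | (congr 1; apply propext; constructor <;> intro hh <;> omega)
      | (rw [Bool.and_comm])

/-- A column in which the row `i` of the pattern has a one. -/
def oneWit (i : Fin 66) : Fin 66 :=
  if i.val < 3 then 0 else if i.val = 3 then 4 else if i.val < 62 then 3 else 62

theorem Hpat_oneWit : ∀ i : Fin 66, Hpat i (oneWit i) = true := by decide

/-- A column in which the rows `p < p'` of the pattern differ. -/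
def rowWit (p p' : Fin 66) : Fin 66 :=
  if p'.val < 3 then (if p.val = 0 ∧ p'.val = 2 then 64 else 1)
  else if p.val < 3 then (if p'.val < 62 then 0 else ⟨(p'.val - 59) % 66, Nat.mod_lt _ (by norm_num)⟩)
  else if p'.val < 62 then p
  else if p.val < 62 then (if p.val = 3 then 63 else 62)
  else ⟨(p.val - 59) % 66, Nat.mod_lt _ (by norm_num)⟩

set_option maxRecDepth 100000 in
theorem Hpat_rowWit : ∀ p p' : Fin 66, p < p' → Hpat p (rowWit p p') ≠ Hpat p' (rowWit p p') := by
  decide

theorem Hpat_row (i : Fin 66) : ∃ j, Hpat i j ≠ false :=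
  ⟨oneWit i, by rw [Hpat_oneWit]; exact Bool.noConfusion⟩

theorem Hpat_col (j : Fin 66) : ∃ i, Hpat i j ≠ false :=
  ⟨oneWit j, by rw [Hpat_symm, Hpat_oneWit]; exact Bool.noConfusion⟩

theorem Hpat_rows_distinct (p p' : Fin 66) (hpp : p < p') : ∃ q, Hpat p q ≠ Hpat p' q :=
  ⟨rowWit p p', Hpat_rowWit p p' hpp⟩

theorem Hpat_cols_distinct (q q' : Fin 66) (hqq : q < q') : ∃ p, Hpat p q ≠ Hpat p q' :=
  ⟨rowWit q q', by rw [Hpat_symm _ q, Hpat_symm _ q']; exact Hpat_rowWit q q' hqq⟩

end Crest.Agent.Helper71.S0066
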